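import Vale.Agent.Lib.P254.BipFinal
import Vale.Agent.Lib.P254.Affine

/-!
# The bipyramid step for an arbitrary base

For a compact set `K` of `ℝ^n` with a witness `y` of `Σ_K y = b_K` (centroid), the determinant
of the covariance matrix of the bipyramid over `K`, and the quantity `det Σ / vol ^ 2`, are
expressed through those of `K` and the number `b_K ⬝ y`.
-/

namespace Vale.Agent.Lib.P254
open MeasureTheory Set

variable {n : ℕ}

/-- determinant of the covariance matrix of a bipyramid, given a solution `y` of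
`Σ_K y = b_K` -/
theorem bip_det_witness {t : ℝ} {K : Set (Fin n → ℝ)} (ht : 0 < t) (hK : IsCompact K)
    (hV : vol K ≠ 0) (y : Fin n → ℝ) (hy : (covMatrix K).mulVec y = centroid K) :
    (covMatrix (bipyramid t K)).det
      = ((((n:ℝ) + 1) * (1 + t ^ 2) + 2 * t) / (((n:ℝ) + 2) ^ 2 * ((n:ℝ) + 3)))
        * ((((n:ℝ) + 1) / ((n:ℝ) + 3)) ^ n * (covMatrix K).det
          * (1 + 2 * t / (((n:ℝ) + 2) * (((n:ℝ) + 1) * (1 + t ^ 2) + 2 * t))
              * (centroid K ⬝ᵥ y))) := by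
  have h1 : ((n:ℝ) + 1) ≠ 0 := by positivity
  have h2 : ((n:ℝ) + 2) ≠ 0 := by positivity
  have h3 : ((n:ℝ) + 3) ≠ 0 := by positivity
  have hU : ((n:ℝ) + 1) * (1 + t ^ 2) + 2 * t ≠ 0 := by positivity
  set u : ℝ := (((n:ℝ) + 1) * (1 + t ^ 2) + 2 * t) / (((n:ℝ) + 2) ^ 2 * ((n:ℝ) + 3)) with hu
  set w : ℝ := (1 - t) * ((n:ℝ) + 1) / (((n:ℝ) + 2) ^ 2 * ((n:ℝ) + 3)) with hw
  set v : ℝ := ((n:ℝ) + 1) / (((n:ℝ) + 2) ^ 2 * ((n:ℝ) + 3)) with hv
  have hu0 : u ≠ 0 := by rw [hu]; positivity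
  have hstep := det_bip_step
    (Matrix.of fun i j => ((n:ℝ) + 1) / ((n:ℝ) + 3) * covMatrix K i j)
    (centroid K) u w v hu0 (covMatrix (bipyramid t K))
    (bip_cov00 ht hK hV) (fun j => bip_cov0s ht hK hV j) (fun i => bip_covs0 ht hK hV i)
    (fun i j => by rw [bip_covss ht hK hV i j]; rfl)
  set c : ℝ := ((n:ℝ) + 1) / ((n:ℝ) + 3) with hc
  have hc0 : c ≠ 0 := by rw [hc]; positivity
  set g : ℝ := v - w ^ 2 / u with hg
  have hmat : (Matrix.of fun i j : Fin n =>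
        (Matrix.of fun i j => c * covMatrix K i j) i j + g * centroid K i * centroid K j)
      = covMatrix K * (c • (1 + Matrix.vecMulVec ((g / c) • y) (centroid K))) := by
    ext i j
    have hyi : ∑ k, covMatrix K i k * y k = centroid K i := congrFun hy i
    simp only [Matrix.of_apply, Matrix.mul_apply, Matrix.smul_apply, Matrix.add_apply,
      Matrix.one_apply, Matrix.vecMulVec_apply, Pi.smul_apply, smul_eq_mul]
    have e : ∀ k, covMatrix K i k * (c * ((if k = j then (1:ℝ) else 0)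
          + g / c * y k * centroid K j))
        = c * (if k = j then covMatrix K i k else 0)
          + g * centroid K j * (covMatrix K i k * y k) := by
      intro k
      have hcg : c * (g / c) = g := by field_simp
      by_cases hkj : k = j
      · simp only [hkj, if_true]
        linear_combination (covMatrix K i j * y j * centroid K j) * hcg
      · simp only [hkj, if_false]
        linear_combination (covMatrix K i k * y k * centroid K j) * hcg
    simp_rw [e]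
    rw [Finset.sum_add_distrib, ← Finset.mul_sum, ← Finset.mul_sum, hyi,
      Finset.sum_ite_eq' Finset.univ j (fun k => covMatrix K i k)]
    simp only [Finset.mem_univ, if_true]
    ring
  rw [hstep, hmat, Matrix.det_mul, Matrix.det_smul, Fintype.card_fin,
    Matrix.vecMulVec_eq (Fin 1), Matrix.det_one_add_replicateCol_mul_replicateRow,
    dotProduct_smul, smul_eq_mul]
  have hgc : g / c = 2 * t / (((n:ℝ) + 2) * (((n:ℝ) + 1) * (1 + t ^ 2) + 2 * t)) := by
    rw [hg, hv, hw, hu, hc]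
    field_simp
    ring
  rw [hgc]
  ring

/-- `det Σ / vol ^ 2` of a bipyramid, given a solution `y` of `Σ_K y = b_K` with
`b_K ⬝ y = (n + 2) (n - (n + 1) q)` -/
theorem bip_lam_witness {t q : ℝ} {K : Set (Fin n → ℝ)} (ht : 0 < t) (hK : IsCompact K)
    (hV : vol K ≠ 0) (y : Fin n → ℝ) (hy : (covMatrix K).mulVec y = centroid K)
    (hD : centroid K ⬝ᵥ y = ((n:ℝ) + 2) * ((n:ℝ) - ((n:ℝ) + 1) * q)) :
    lam (bipyramid t K) = cn n * lam K * (1 - 2 * t * q / (1 + t) ^ 2) := by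
  have h1 : ((n:ℝ) + 1) ≠ 0 := by positivity
  have h2 : ((n:ℝ) + 2) ≠ 0 := by positivity
  have h3 : ((n:ℝ) + 3) ≠ 0 := by positivity
  have h4 : (1 + t) ≠ 0 := by positivity
  have hU : ((n:ℝ) + 1) * (1 + t ^ 2) + 2 * t ≠ 0 := by positivity
  rw [lam, lam, bip_det_witness ht hK hV y hy, hD, bip_vol ht hK, cn,
    div_pow ((n:ℝ) + 1) ((n:ℝ) + 3) n, pow_add ((n:ℝ) + 1) n 3, pow_succ ((n:ℝ) + 3) n]
  field_simp
  ring

/-- the bipyramid over `K`, translated so that its lower apex `(-t, 0, …, 0)` becomes the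
origin -/
def liftBip (t : ℝ) (K : Set (Fin n → ℝ)) : Set (Fin (n + 1) → ℝ) :=
  affMap (1 : Matrix (Fin (n + 1)) (Fin (n + 1)) ℝ) (Fin.cons t (0 : Fin n → ℝ)) '' bipyramid t K

theorem one_det_ne (m : ℕ) : (1 : Matrix (Fin m) (Fin m) ℝ).det ≠ 0 := by simp

theorem liftBip_body {t : ℝ} {K : Set (Fin n → ℝ)} (ht : 0 < t) (hK : IsConvexBody K)
    (h0 : (0 : Fin n → ℝ) ∈ K) : IsConvexBody (liftBip t K) :=
  affine_body (one_det_ne (n + 1)) _ (bipyramid_body ht hK h0)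

theorem apexDown_mem {t : ℝ} {K : Set (Fin n → ℝ)} (ht : 0 < t) (h0 : (0 : Fin n → ℝ) ∈ K) :
    (Fin.cons (-t) (0 : Fin n → ℝ) : Fin (n + 1) → ℝ) ∈ bipyramid t K := by
  right
  refine ⟨by simp, by simp; exact ht.le, 0, h0, ?_⟩
  intro i
  simp

theorem zero_mem_liftBip {t : ℝ} {K : Set (Fin n → ℝ)} (ht : 0 < t)
    (h0 : (0 : Fin n → ℝ) ∈ K) : (0 : Fin (n + 1) → ℝ) ∈ liftBip t K := by
  refine ⟨Fin.cons (-t) (0 : Fin n → ℝ), apexDown_mem ht h0, ?_⟩
  ext i
  rw [affMap_apply]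
  refine Fin.cases ?_ (fun j => ?_) i
  · simp [Matrix.one_apply]
  · simp [Matrix.one_apply]

theorem liftBip_lam {t : ℝ} {K : Set (Fin n → ℝ)} (ht : 0 < t) (hK : IsCompact K)
    (hV : vol K ≠ 0) : lam (liftBip t K) = lam (bipyramid t K) :=
  affine_lam (one_det_ne (n + 1)) _ (isCompact_bipyramid ht hK) (bip_vol_ne ht hK hV)

theorem liftBip_cov {t : ℝ} {K : Set (Fin n → ℝ)} (ht : 0 < t) (hK : IsCompact K)
    (hV : vol K ≠ 0) : covMatrix (liftBip t K) = covMatrix (bipyramid t K) := by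
  unfold liftBip
  rw [affine_cov (one_det_ne (n + 1)) _ (isCompact_bipyramid ht hK) (bip_vol_ne ht hK hV)]
  simp

theorem liftBip_centroid {t : ℝ} {K : Set (Fin n → ℝ)} (ht : 0 < t) (hK : IsCompact K)
    (hV : vol K ≠ 0) (i : Fin (n + 1)) :
    centroid (liftBip t K) i
      = centroid (bipyramid t K) i + (Fin.cons t (0 : Fin n → ℝ) : Fin (n + 1) → ℝ) i := by
  unfold liftBip
  rw [affine_centroid (one_det_ne (n + 1)) _ (isCompact_bipyramid ht hK) (bip_vol_ne ht hK hV) i,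
    affMap_apply]
  simp [Matrix.one_apply]

/-- the witness for the bipyramid seen from its lower apex -/
theorem bip_witness {t q : ℝ} {K : Set (Fin n → ℝ)} (ht : 0 < t) (hK : IsCompact K)
    (hV : vol K ≠ 0) (y : Fin n → ℝ) (hy : (covMatrix K).mulVec y = centroid K)
    (hD : centroid K ⬝ᵥ y = ((n:ℝ) + 2) * ((n:ℝ) - ((n:ℝ) + 1) * q))
    (hQ : (1 + t) ^ 2 - 2 * t * q ≠ 0) :
    ∃ z : Fin (n + 1) → ℝ,
      (covMatrix (bipyramid t K)).mulVec z
          = (fun i => centroid (bipyramid t K) i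
              + (Fin.cons t (0 : Fin n → ℝ) : Fin (n + 1) → ℝ) i) ∧
      (fun i => centroid (bipyramid t K) i
              + (Fin.cons t (0 : Fin n → ℝ) : Fin (n + 1) → ℝ) i) ⬝ᵥ z
          = ((n:ℝ) + 3) * (((n:ℝ) + 1) - ((n:ℝ) + 2) * (q / ((1 + t) ^ 2 - 2 * t * q))) := by
  have h1 : ((n:ℝ) + 1) ≠ 0 := by positivity
  have h2 : ((n:ℝ) + 2) ≠ 0 := by positivity
  have h3 : ((n:ℝ) + 3) ≠ 0 := by positivity
  have hN : ∀ i, ∑ j, covMatrix K i j * y j = centroid K i := fun i => congrFun hy i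
  have hDs : ∑ j, centroid K j * y j = ((n:ℝ) + 2) * ((n:ℝ) - ((n:ℝ) + 1) * q) := hD
  obtain ⟨Q, hQd⟩ : ∃ Q : ℝ, Q = (1 + t) ^ 2 - 2 * t * q := ⟨_, rfl⟩
  rw [← hQd] at hQ ⊢
  refine ⟨Fin.cons (((n:ℝ) + 2) * ((n:ℝ) + 3) * (1 + t - q) / Q)
    ((((n:ℝ) + 3) * (1 + t) / (((n:ℝ) + 1) * Q)) • y), ?_, ?_⟩
  · funext i
    refine Fin.cases ?_ (fun i => ?_) i
    · simp only [Matrix.mulVec, dotProduct, Fin.sum_univ_succ, Fin.cons_zero, Fin.cons_succ,
        Pi.smul_apply, smul_eq_mul]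
      rw [bip_cov00 ht hK hV, bip_centroid0 ht hK hV]
      simp_rw [bip_cov0s ht hK hV]
      have e : ∀ j : Fin n,
          -((1 - t) * ((n:ℝ) + 1) / (((n:ℝ) + 2) ^ 2 * ((n:ℝ) + 3))) * centroid K j
            * (((n:ℝ) + 3) * (1 + t) / (((n:ℝ) + 1) * Q) * y j)
          = -((1 - t) * ((n:ℝ) + 1) / (((n:ℝ) + 2) ^ 2 * ((n:ℝ) + 3)))
              * (((n:ℝ) + 3) * (1 + t) / (((n:ℝ) + 1) * Q))
              * (centroid K j * y j) := by intro j; ring
      simp_rw [e]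
      rw [← Finset.mul_sum, hDs]
      field_simp
      subst hQd
      ring
    · simp only [Matrix.mulVec, dotProduct, Fin.sum_univ_succ, Fin.cons_zero, Fin.cons_succ,
        Pi.smul_apply, smul_eq_mul, Pi.zero_apply, add_zero]
      rw [bip_covs0 ht hK hV, bip_centroids ht hK hV]
      simp_rw [bip_covss ht hK hV]
      have e : ∀ j : Fin n,
          (((n:ℝ) + 1) / ((n:ℝ) + 3) * covMatrix K i j
            + ((n:ℝ) + 1) / (((n:ℝ) + 2) ^ 2 * ((n:ℝ) + 3)) * centroid K i * centroid K j)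
            * (((n:ℝ) + 3) * (1 + t) / (((n:ℝ) + 1) * Q) * y j)
          = ((n:ℝ) + 1) / ((n:ℝ) + 3) * (((n:ℝ) + 3) * (1 + t) / (((n:ℝ) + 1) * Q))
              * (covMatrix K i j * y j)
            + ((n:ℝ) + 1) / (((n:ℝ) + 2) ^ 2 * ((n:ℝ) + 3)) * centroid K i
              * (((n:ℝ) + 3) * (1 + t) / (((n:ℝ) + 1) * Q))
              * (centroid K j * y j) := by intro j; ring
      simp_rw [e]
      rw [Finset.sum_add_distrib, ← Finset.mul_sum, ← Finset.mul_sum, hN, hDs]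
      field_simp
      subst hQd
      ring
  · simp only [dotProduct, Fin.sum_univ_succ, Fin.cons_zero, Fin.cons_succ, Pi.smul_apply,
      smul_eq_mul, Pi.zero_apply, add_zero]
    rw [bip_centroid0 ht hK hV]
    simp_rw [bip_centroids ht hK hV]
    have e : ∀ j : Fin n, ((n:ℝ) + 1) / ((n:ℝ) + 2) * centroid K j
          * (((n:ℝ) + 3) * (1 + t) / (((n:ℝ) + 1) * Q) * y j)
        = ((n:ℝ) + 1) / ((n:ℝ) + 2) * (((n:ℝ) + 3) * (1 + t) / (((n:ℝ) + 1) * Q))
          * (centroid K j * y j) := by intro j; ring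
    simp_rw [e]
    rw [← Finset.mul_sum, hDs]
    field_simp
    subst hQd
    ring

/-- The invariant carried along iterated bipyramids: `K` is a convex body containing the
origin, `det Σ_K / vol(K)^2` is `R` times that of the simplex, and the centroid `b_K` solves
`Σ_K y = b_K` with `b_K ⬝ y = (n + 2) (n - (n + 1) q)`. -/
def BipInv {n : ℕ} (K : Set (Fin n → ℝ)) (R q : ℝ) : Prop :=
  IsConvexBody K ∧ (0 : Fin n → ℝ) ∈ K ∧ lam K = lam (solidSimplex n) * R ∧
    ∃ y : Fin n → ℝ, (covMatrix K).mulVec y = centroid K ∧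
      centroid K ⬝ᵥ y = ((n:ℝ) + 2) * ((n:ℝ) - ((n:ℝ) + 1) * q)

theorem lam_solidSimplex_succ (n : ℕ) :
    lam (solidSimplex (n + 1)) = cn n * lam (solidSimplex n) := by
  rw [← pyramid_solidSimplex, pyramid_lam_body (solidSimplex_body n)]

/-- **The bipyramid step.** -/
theorem bipInv_step {K : Set (Fin n → ℝ)} {R q t : ℝ} (h : BipInv K R q) (ht : 0 < t)
    (hQ : (1 + t) ^ 2 - 2 * t * q ≠ 0) :
    BipInv (liftBip t K) (R * (1 - 2 * t * q / (1 + t) ^ 2))
      (q / ((1 + t) ^ 2 - 2 * t * q)) := by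
  obtain ⟨hb, h0, hlam, y, hy, hD⟩ := h
  have hV : vol K ≠ 0 := (vol_pos_of_body hb).ne'
  refine ⟨liftBip_body ht hb h0, zero_mem_liftBip ht h0, ?_, ?_⟩
  · rw [liftBip_lam ht hb.1 hV, bip_lam_witness ht hb.1 hV y hy hD, hlam, lam_solidSimplex_succ]
    ring
  · obtain ⟨z, hz1, hz2⟩ := bip_witness ht hb.1 hV y hy hD hQ
    have hc : centroid (liftBip t K) = fun i => centroid (bipyramid t K) i
        + (Fin.cons t (0 : Fin n → ℝ) : Fin (n + 1) → ℝ) i :=
      funext fun i => liftBip_centroid ht hb.1 hV i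
    refine ⟨z, ?_, ?_⟩
    · rw [liftBip_cov ht hb.1 hV, hz1, hc]
    · rw [hc, hz2]
      push_cast
      ring

end Vale.Agent.Lib.P254
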